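import Vale.Agent.P032.S5.H225.Germ
import Vale.Agent.P032.S5.H394.Ends

/-!
# P032: special ends of type alpha

`z` a two-pair centre `ab | cd`, `v` a two-pair centre on `S(z)` with `T v = {a, b, e, f}`, points
with palette `{a, b}` of `S(z)` accumulate at `v`: the pairs of `v` are crossed, and `S(z)` is exactly
`ab` on one side of `v` and in `{e, f}` on the other side.
-/

open Set Filter Topology Metric

noncomputable section

namespace Vale.Agent.P032.Six

variable {k : ℕ} {U : Fin k → Set ℂ} {T : ℂ → Set (Fin k)}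

/-- a property of the points of `S(z)` near `v` from the two half branches and `v` -/
theorem ev_of_hb {z v : ℂ} (hv : dist v z = 1) {p : ℂ → Prop} {τ : ℝ} (hτ : τ = 1 ∨ τ = -1)
    (h0 : p v) (h1 : ∀ᶠ t : ℝ in 𝓝[>] 0, p (hb z v τ t))
    (h2 : ∀ᶠ t : ℝ in 𝓝[>] 0, p (hb z v (-τ) t)) : ∀ᶠ q in 𝓝[sphere z 1] v, p q := by
  have key : (∀ᶠ t : ℝ in 𝓝[>] 0, p (hb z v 1 t)) ∧ ∀ᶠ t : ℝ in 𝓝[>] 0, p (hb z v (-1) t) := by
    rcases hτ with rfl | rfl
    · exact ⟨h1, h2⟩
    · rw [neg_neg] at h2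
      exact ⟨h2, h1⟩
  obtain ⟨ε₂, hε₂, k2⟩ := mem_nhdsGT_iff_exists_Ioo_subset.1 key.1
  obtain ⟨ε₁, hε₁, k1⟩ := mem_nhdsGT_iff_exists_Ioo_subset.1 key.2
  refine eventually_circle_of hv h0 hε₁ hε₂ (fun t ht => ?_) fun t ht => ?_
  · have := k1 ht
    have e : hb z v (-1) t = z + (v - z) * cis (-(1 * t)) := by rw [hb, neg_one_mul, one_mul]
    rw [← e]; exact this
  · have := k2 ht
    have e : hb z v 1 t = z + (v - z) * cis (-((-1) * t)) := by
      rw [hb, neg_one_mul, neg_neg, one_mul]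
    rw [← e]; exact this

/-- the pairs of a two-pair centre containing a given colour -/
theorem DPt.first {v : ℂ} {p q r s a : Fin k} (h : DPt T v p q r s) (ha : a ∈ T v) :
    ∃ x y w, DPt T v a x y w := by
  rw [h.pal] at ha
  rcases ha with rfl | rfl | rfl | ha
  · exact ⟨_, _, _, h⟩
  · exact ⟨_, _, _, h.swap12⟩
  · exact ⟨_, _, _, h.swap⟩
  · rw [mem_singleton_iff] at ha
    subst ha
    exact ⟨_, _, _, h.swap.swap12⟩

/-- the pairings of the four colours -/
theorem DPt.cases4 {v : ℂ} {p q r s a b c d : Fin k} (h : DPt T v p q r s)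
    (hT : T v = {a, b, c, d}) (hab : a ≠ b) (hac : a ≠ c) (had : a ≠ d) (hbc : b ≠ c)
    (hbd : b ≠ d) (hcd : c ≠ d) : DPt T v a b c d ∨ DPt T v a c b d ∨ DPt T v a d b c := by
  obtain ⟨x, y, w, h1⟩ := h.first (a := a) (by rw [hT]; simp)
  have e := h1.pal
  rw [hT] at e
  have hx : x ∈ ({a, b, c, d} : Set (Fin k)) := by rw [e]; simp
  have hy : y ∈ ({a, b, c, d} : Set (Fin k)) := by rw [e]; simp
  have hw : w ∈ ({a, b, c, d} : Set (Fin k)) := by rw [e]; simp
  simp only [mem_insert_iff, mem_singleton_iff] at hx hy hw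
  have n1 := h1.ac
  have n2 := h1.ad
  have n3 := h1.bc
  have n4 := h1.bd
  have n5 := h1.ab
  have n6 := h1.cd
  rcases hx with rfl | rfl | rfl | rfl
  · exact absurd rfl n5
  · left
    rcases hy with rfl | rfl | rfl | rfl
    · exact absurd rfl n1
    · exact absurd rfl n3
    · rcases hw with rfl | rfl | rfl | rfl
      · exact absurd rfl n2
      · exact absurd rfl n4
      · exact absurd rfl n6
      · exact h1
    · rcases hw with rfl | rfl | rfl | rfl
      · exact absurd rfl n2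
      · exact absurd rfl n4
      · exact h1.swap34
      · exact absurd rfl n6
  · right; left
    rcases hy with rfl | rfl | rfl | rfl
    · exact absurd rfl n1
    · rcases hw with rfl | rfl | rfl | rfl
      · exact absurd rfl n2
      · exact absurd rfl n6
      · exact absurd rfl n4
      · exact h1
    · exact absurd rfl n3
    · rcases hw with rfl | rfl | rfl | rfl
      · exact absurd rfl n2
      · exact h1.swap34
      · exact absurd rfl n4
      · exact absurd rfl n6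
  · right; right
    rcases hy with rfl | rfl | rfl | rfl
    · exact absurd rfl n1
    · rcases hw with rfl | rfl | rfl | rfl
      · exact absurd rfl n2
      · exact absurd rfl n6
      · exact h1
      · exact absurd rfl n4
    · rcases hw with rfl | rfl | rfl | rfl
      · exact absurd rfl n2
      · exact h1.swap34
      · exact absurd rfl n6
      · exact absurd rfl n4
    · exact absurd rfl n3

/-- **(L3), alpha ends** -/
theorem Irr.list_alpha (h : Irr U T) {z v : ℂ} {a b c d e f : Fin k} (hz : DPt T z a b c d)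
    (he : e ∉ T z) (hf : f ∉ T z) (hef : e ≠ f) (hv : dist v z = 1) (hT : T v = {a, b, e, f})
    (hD : ∃ p q r s, DPt T v p q r s) (hacc : ∃ᶠ q in 𝓝[sphere z 1] v, T q = {a, b}) :
    (DPt T v a e b f ∨ DPt T v a f b e) ∧ ∃ τ : ℝ, (τ = 1 ∨ τ = -1) ∧
      (∀ᶠ t : ℝ in 𝓝[>] 0, T (hb z v τ t) = {a, b}) ∧
      ∀ᶠ t : ℝ in 𝓝[>] 0, T (hb z v (-τ) t) ⊆ {e, f} := by
  have haz : a ∈ T z := by rw [hz.pal]; simp
  have hbz : b ∈ T z := by rw [hz.pal]; simp
  have hae : a ≠ e := fun h0 => he (h0 ▸ haz)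
  have haf : a ≠ f := fun h0 => hf (h0 ▸ haz)
  have hbe : b ≠ e := fun h0 => he (h0 ▸ hbz)
  have hbf : b ≠ f := fun h0 => hf (h0 ▸ hbz)
  have hv0 : T v ≠ {a, b} := by
    intro h0
    have : e ∈ ({a, b} : Set (Fin k)) := by rw [← h0, hT]; simp
    rcases this with h1 | h1
    · exact hae h1.symm
    · rw [mem_singleton_iff] at h1; exact hbe h1.symm
  -- no accumulation from the two half branches
  have key : ∀ τ : ℝ, (τ = 1 ∨ τ = -1) → (∀ᶠ t : ℝ in 𝓝[>] 0, T (hb z v τ t) ≠ {a, b}) →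
      (∀ᶠ t : ℝ in 𝓝[>] 0, T (hb z v (-τ) t) ≠ {a, b}) → False := by
    intro τ hτ h1 h2
    exact hacc (ev_of_hb (p := fun q => ¬ T q = {a, b}) hv hτ hv0 h1 h2)
  have mem : ∀ g : Fin k, a ≠ g → b ≠ g → ∀ τ : ℝ, (∀ᶠ t : ℝ in 𝓝[>] 0, g ∈ T (hb z v τ t)) →
      ∀ᶠ t : ℝ in 𝓝[>] 0, T (hb z v τ t) ≠ {a, b} := by
    intro g h1 h2 τ h3
    filter_upwards [h3] with t h4 h5
    rw [h5] at h4
    rcases h4 with h6 | h6
    · exact h1 h6.symm
    · rw [mem_singleton_iff] at h6; exact h2 h6.symm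
  obtain ⟨p, q, r, s, hD⟩ := hD
  rcases hD.cases4 hT hz.ab hae haf hbe hbf hef with h1 | h1 | h1
  · exfalso
    obtain ⟨τ, hτ, h2, h3⟩ := h.germ_flip haz hbz h1 hv
    exact key τ hτ (mem e hae hbe τ (h2.mono fun t ht => ht.1))
      (mem f haf hbf (-τ) (h3.mono fun t ht => ht.1))
  · refine ⟨Or.inl h1, ?_⟩
    obtain ⟨τ, hτ, h2 | h2⟩ := h.germ_cross (x := a) (x' := b) (e := f) (f := e) haz hbz h1 hv
    · exact ⟨τ, hτ, h2.1, h2.2.mono fun t ht => by rwa [pair_comm] at ht⟩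
    · exact (key τ hτ (mem f haf hbf τ (h2.1.mono fun t ht => ht.2))
        (mem e hae hbe (-τ) (h2.2.mono fun t ht => ht.2))).elim
  · refine ⟨Or.inr h1, ?_⟩
    obtain ⟨τ, hτ, h2 | h2⟩ := h.germ_cross (x := a) (x' := b) (e := e) (f := f) haz hbz h1 hv
    · exact ⟨τ, hτ, h2.1, h2.2⟩
    · exact (key τ hτ (mem e hae hbe τ (h2.1.mono fun t ht => ht.2))
        (mem f haf hbf (-τ) (h2.2.mono fun t ht => ht.2))).elim

end Vale.Agent.P032.Six
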