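import Vale.Agent.P032.Six.Max

/-!
# P032: coarsest families

`BLe U W`: every ball inside a member of `U` is inside a member of `W`.  `exists_coarse`: every
family of open sets without unit distance and with dense union can be replaced by a `Coarse` one
(maximal for `BLe`), all of whose members are maximal open sets without unit distance.
`Coarse.swap`: the exchange of two colours on a closed configuration of pieces does not produce
new balls; in particular it does not uncover points of `XX U`.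
-/

open Set Filter Topology Metric

noncomputable section

namespace Vale.Agent.P032.S5.H820

open Vale.Agent.P032.Six

variable {k : ℕ}

/-- families of open sets without unit distance -/
structure Fam (U : Fin k → Set ℂ) : Prop where
  op : ∀ i, IsOpen (U i)
  free : ∀ i, ∀ x ∈ U i, ∀ y ∈ U i, dist x y ≠ 1

/-- every ball inside a member of `U` is inside a member of `W` -/
def BLe (U W : Fin k → Set ℂ) : Prop := ∀ x r i, ball x r ⊆ U i → ∃ j, ball x r ⊆ W j

theorem BLe.refl (U : Fin k → Set ℂ) : BLe U U := fun _ _ i h => ⟨i, h⟩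

theorem BLe.trans {U V W : Fin k → Set ℂ} (h : BLe U V) (h' : BLe V W) : BLe U W := by
  intro x r i hi
  obtain ⟨j, hj⟩ := h x r i hi
  exact h' x r j hj

theorem BLe.of_sub {U W : Fin k → Set ℂ} (h : ∀ i, U i ⊆ W i) : BLe U W :=
  fun _ _ i hi => ⟨i, hi.trans (h i)⟩

/-- maximal for `BLe` -/
def Coarse (U : Fin k → Set ℂ) : Prop := ∀ W : Fin k → Set ℂ, Fam W → BLe U W → BLe W U

/-- **Existence of coarsest families.** -/
theorem exists_coarse_fam (V : Fin k → Set ℂ) (hV : Fam V) :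
    ∃ U : Fin k → Set ℂ, Fam U ∧ BLe V U ∧ Coarse U := by
  classical
  let P := {U : Fin k → Set ℂ // Fam U ∧ BLe V U}
  let R : P → P → Prop := fun a b => BLe a.1 b.1
  have key : ∀ c : Set P, IsChain R c → ∃ ub : P, ∀ a ∈ c, R a ub := by
    intro c hc
    rcases c.eq_empty_or_nonempty with rfl | hne
    · exact ⟨⟨V, hV, BLe.refl V⟩, fun a ha => absurd ha (notMem_empty a)⟩
    let pre : Preorder c :=
      { le := fun a b => BLe a.1.1 b.1.1
        lt := fun a b => BLe a.1.1 b.1.1 ∧ ¬ BLe b.1.1 a.1.1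
        le_refl := fun a => BLe.refl _
        le_trans := fun a b d h h' => h.trans h'
        lt_iff_le_not_ge := fun a b => Iff.rfl }
    have : Nonempty c := hne.to_subtype
    have : @IsDirected c pre.le := ⟨fun a b => by
      by_cases hab : a.1 = b.1
      · refine ⟨b, ?_, BLe.refl _⟩
        show BLe a.1.1 b.1.1
        rw [hab]
        exact BLe.refl _
      · rcases hc a.2 b.2 hab with h | h
        · exact ⟨b, h, BLe.refl _⟩
        · exact ⟨a, BLe.refl _, h⟩⟩
    have : (@atTop c pre).NeBot := @atTop_neBot c pre _ _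
    let F : Ultrafilter c := Ultrafilter.of (@atTop c pre)
    have hF : (F : Filter c) ≤ @atTop c pre := Ultrafilter.of_le _
    let W : Fin k → Set ℂ := fun i => {x | ∃ r > 0, ∀ᶠ a : c in (F : Filter c), ball x r ⊆ a.1.1 i}
    have hball : ∀ x r i, (∀ᶠ a : c in (F : Filter c), ball x r ⊆ a.1.1 i) → ball x r ⊆ W i := by
      intro x r i h y hy
      refine ⟨r - dist y x, sub_pos.2 hy, h.mono fun a ha => (ball_subset_ball' ?_).trans ha⟩
      linarith
    have hW : Fam W := by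
      refine ⟨fun i => Metric.isOpen_iff.2 ?_, fun i x hx y hy hxy => ?_⟩
      · rintro x ⟨r, hr, h⟩
        exact ⟨r, hr, hball x r i h⟩
      · obtain ⟨r, hr, h⟩ := hx
        obtain ⟨s, hs, h'⟩ := hy
        obtain ⟨a, ha, ha'⟩ := (h.and h').exists
        exact a.1.2.1.free i x (ha (mem_ball_self hr)) y (ha' (mem_ball_self hs)) hxy
    have hub : ∀ a : c, BLe a.1.1 W := by
      intro a x r i hi
      have h1 : ∀ᶠ b : c in (F : Filter c), ∃ j, ball x r ⊆ b.1.1 j := by
        filter_upwards [hF (@eventually_ge_atTop c pre a)] with b hb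
        exact hb x r i hi
      have h2 : ∃ j, ∀ᶠ b : c in (F : Filter c), ball x r ⊆ b.1.1 j := by
        by_contra hcon
        push Not at hcon
        have h3 : ∀ j, ∀ᶠ b : c in (F : Filter c), ¬ ball x r ⊆ b.1.1 j := hcon
        obtain ⟨b, ⟨j, hj⟩, hb⟩ := (h1.and (eventually_all.2 h3)).exists
        exact hb j hj
      obtain ⟨j, hj⟩ := h2
      exact ⟨j, hball x r j hj⟩
    obtain ⟨a0⟩ : Nonempty c := inferInstance
    exact ⟨⟨W, hW, a0.1.2.2.trans (hub a0)⟩, fun a ha => hub ⟨a, ha⟩⟩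
  obtain ⟨m, hm⟩ := exists_maximal_of_chains_bounded key (fun {a b d} h h' => h.trans h')
  exact ⟨m.1, m.2.1, m.2.2, fun W hW h => hm ⟨W, hW, m.2.2.trans h⟩ h⟩

theorem BLe.union {U W : Fin k → Set ℂ} (hU : Fam U) (h : BLe U W) : (⋃ i, U i) ⊆ ⋃ i, W i := by
  intro x hx
  obtain ⟨i, hi⟩ := mem_iUnion.1 hx
  obtain ⟨r, hr, hb⟩ := Metric.isOpen_iff.1 (hU.op i) x hi
  obtain ⟨j, hj⟩ := h x r i hb
  exact mem_iUnion.2 ⟨j, hj (mem_ball_self hr)⟩

/-- **Existence of coarsest maximal families.** -/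
theorem exists_coarse (V : Fin k → Set ℂ) (hV : ∀ i, IsOpen (V i))
    (h : ∀ i, ∀ x ∈ V i, ∀ y ∈ V i, dist x y ≠ 1) (hd : Dense (⋃ i, V i)) :
    ∃ U : Fin k → Set ℂ, Fam U ∧ Mx U ∧ (∀ i x, x ∈ U i ↔ ∀ y ∈ closure (U i), dist x y ≠ 1) ∧
      (⋃ i, V i) ⊆ (⋃ i, U i) ∧ Coarse U := by
  obtain ⟨U₀, hF, hVU, hC⟩ := exists_coarse_fam V ⟨hV, h⟩
  choose U hUU hU hmax using fun i => exists_maximal (U₀ i) (hF.op i) (hF.free i)
  have hle : BLe U₀ U := BLe.of_sub hUU
  have hFU : Fam U := ⟨hU, fun i x hx y hy => (hmax i x).1 hx y (subset_closure hy)⟩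
  have hsub : (⋃ i, V i) ⊆ ⋃ i, U i := (hVU.trans hle).union ⟨hV, h⟩
  exact ⟨U, hFU, Mx.of_max hU (hd.mono hsub) hmax, hmax, hsub,
    fun W hW h' => (hC W hW (hle.trans h')).trans hle⟩

/-- a member of a family and a set whose frontier it does not meet -/
theorem clopen_inter {V D : Set ℂ} (hV : IsOpen V) (hD : ∀ x ∈ V, x ∉ frontier D) :
    IsOpen (V ∩ D) ∧ IsOpen (V \ D) := by
  have h1 : V ∩ D = V ∩ interior D := by
    ext x
    refine ⟨fun hx => ⟨hx.1, ?_⟩, fun hx => ⟨hx.1, interior_subset hx.2⟩⟩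
    by_contra hcon
    exact hD x hx.1 ⟨subset_closure hx.2, hcon⟩
  have h2 : V \ D = V \ closure D := by
    ext x
    refine ⟨fun hx => ⟨hx.1, fun hcl => ?_⟩, fun hx => ⟨hx.1, fun hD' => hx.2 (subset_closure hD')⟩⟩
    exact hD x hx.1 ⟨hcl, fun hi => hx.2 (interior_subset hi)⟩
  exact ⟨h1 ▸ hV.inter isOpen_interior, h2 ▸ hV.sdiff isClosed_closure⟩

/-- a ball in `V` lies in `D` or outside `D` -/
theorem ball_or {V D : Set ℂ} (hV : IsOpen V) (hD : ∀ x ∈ V, x ∉ frontier D) {x : ℂ} {r : ℝ}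
    (h : ball x r ⊆ V) : ball x r ⊆ V ∩ D ∨ ball x r ⊆ V \ D := by
  obtain ⟨h1, h2⟩ := clopen_inter hV hD
  refine (convex_ball x r).isPreconnected.subset_or_subset h1 h2 ?_ fun y hy => ?_
  · exact Set.disjoint_left.2 fun y hy hy' => hy'.2 hy.2
  · by_cases hyD : y ∈ D
    · exact Or.inl ⟨h hy, hyD⟩
    · exact Or.inr ⟨h hy, hyD⟩

/-- **The exchange of two colours.** -/
theorem Coarse.swap {U : Fin k → Set ℂ} (hC : Coarse U) (hF : Fam U) {a c : Fin k} (hac : a ≠ c)
    {D E : Set ℂ} (hD : ∀ x ∈ U c, x ∉ frontier D) (hE : ∀ x ∈ U a, x ∉ frontier E)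
    (h1 : ∀ p ∈ U a, ∀ q ∈ U c, q ∈ D → dist p q = 1 → p ∈ E)
    (h2 : ∀ p ∈ U a, ∀ q ∈ U c, p ∈ E → dist p q = 1 → q ∈ D) {x : ℂ} {r : ℝ}
    (hb : ball x r ⊆ closure ((U a \ E) ∪ (U c ∩ D))) : ∃ j, ball x r ⊆ U j := by
  classical
  set A : Set ℂ := (U a \ E) ∪ (U c ∩ D) with hA
  set B : Set ℂ := (U c \ D) ∪ (U a ∩ E) with hB
  obtain ⟨o1, o2⟩ := clopen_inter (hF.op c) hD
  obtain ⟨o3, o4⟩ := clopen_inter (hF.op a) hE
  have hAo : IsOpen A := o4.union o1
  have hBo : IsOpen B := o2.union o3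
  have hAf : ∀ x ∈ A, ∀ y ∈ A, dist x y ≠ 1 := by
    rintro p (hp | hp) q (hq | hq) hpq
    · exact hF.free a p hp.1 q hq.1 hpq
    · exact hp.2 (h1 p hp.1 q hq.1 hq.2 hpq)
    · exact hq.2 (h1 q hq.1 p hp.1 hp.2 (by rwa [dist_comm]))
    · exact hF.free c p hp.1 q hq.1 hpq
  have hBf : ∀ x ∈ B, ∀ y ∈ B, dist x y ≠ 1 := by
    rintro p (hp | hp) q (hq | hq) hpq
    · exact hF.free c p hp.1 q hq.1 hpq
    · exact hp.2 (h2 q hq.1 p hp.1 hq.2 (by rwa [dist_comm]))
    · exact hq.2 (h2 p hp.1 q hq.1 hp.2 hpq)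
    · exact hF.free a p hp.1 q hq.1 hpq
  have hAs : A ⊆ interior (closure A) := interior_maximal subset_closure hAo
  let W : Fin k → Set ℂ := fun i => if i = a then interior (closure A) else if i = c then B else U i
  have hWa : W a = interior (closure A) := by simp [W]
  have hWc : W c = B := by simp [W, hac.symm]
  have hWi : ∀ i, i ≠ a → i ≠ c → W i = U i := fun i h h' => by simp [W, h, h']
  have hW : Fam W := by
    refine ⟨fun i => ?_, fun i => ?_⟩
    · by_cases ha : i = a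
      · rw [ha, hWa]; exact isOpen_interior
      · by_cases hc : i = c
        · rw [hc, hWc]; exact hBo
        · rw [hWi i ha hc]; exact hF.op i
    · by_cases ha : i = a
      · rw [ha, hWa]
        intro p hp q hq
        exact free_int_closure (free_closure hAo hAf) p hp q (interior_subset hq)
      · by_cases hc : i = c
        · rw [hc, hWc]; exact hBf
        · rw [hWi i ha hc]; exact hF.free i
  have hle : BLe U W := by
    intro y s i hi
    by_cases ha : i = a
    · subst ha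
      rcases ball_or (hF.op i) hE hi with h | h
      · exact ⟨c, by rw [hWc]; exact h.trans subset_union_right⟩
      · exact ⟨i, by rw [hWa]; exact (h.trans subset_union_left).trans hAs⟩
    · by_cases hc : i = c
      · subst hc
        rcases ball_or (hF.op i) hD hi with h | h
        · exact ⟨a, by rw [hWa]; exact (h.trans subset_union_right).trans hAs⟩
        · exact ⟨i, by rw [hWc]; exact h.trans subset_union_left⟩
      · exact ⟨i, by rw [hWi i ha hc]; exact hi⟩
  refine hC W hW hle x r a ?_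
  rw [hWa]
  exact interior_maximal hb isOpen_ball

/-- the exchange does not cover points of `XX U` -/
theorem Coarse.swap_XX {U : Fin k → Set ℂ} (hC : Coarse U) (hF : Fam U) {a c : Fin k} (hac : a ≠ c)
    {D E : Set ℂ} (hD : ∀ x ∈ U c, x ∉ frontier D) (hE : ∀ x ∈ U a, x ∉ frontier E)
    (h1 : ∀ p ∈ U a, ∀ q ∈ U c, q ∈ D → dist p q = 1 → p ∈ E)
    (h2 : ∀ p ∈ U a, ∀ q ∈ U c, p ∈ E → dist p q = 1 → q ∈ D) {x : ℂ} (hx : x ∈ XX U)
    (hb : ∀ᶠ w in 𝓝 x, w ∈ closure ((U a \ E) ∪ (U c ∩ D))) : False := by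
  obtain ⟨r, hr, h⟩ := Metric.eventually_nhds_iff_ball.1 hb
  obtain ⟨j, hj⟩ := hC.swap hF hac hD hE h1 h2 h
  exact hx j (hj (mem_ball_self hr))

end Vale.Agent.P032.S5.H820
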